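import Crest.Agent.R163.Q3.D.P6.S1

set_option autoImplicit false
set_option maxRecDepth 100000
set_option linter.all false
set_option Elab.async false

namespace Crest.Agent.R163.P6

theorem c45_0 : stepsOK2 par ⟨720,23,12,1,9⟩ b45_0 s45_0 a45_0 = true := by decide +kernel
theorem c46_0 : stepsOK2 par ⟨719,23,12,1,9⟩ b46_0 s46_0 a46_0 = true := by decide +kernel
theorem c46_1 : stepsOK2 par ⟨716,23,12,1,9⟩ b46_1 s46_1 a46_1 = true := by decide +kernel

end Crest.Agent.R163.P6
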